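import Vale.Agent.P323.H709.Next

/-!
# The transfinite chain, its union, and the charts
-/

namespace Vale.Agent.P323.H709

open CategoryTheory Vale.Agent.P323.Z

universe w v u

/-! ### Base stage -/

theorem isStage_nat : IsStage ℕ (fun n => n) (fun n => homOfLE (Nat.le_succ n)) := by
  refine ⟨?_, ?_, ?_, ?_⟩
  · intro x y f
    exact ⟨fun _ _ _ => Subsingleton.elim _ _⟩
  · intro x y b f g
    refine ⟨min x y, homOfLE (min_le_left _ _), homOfLE (min_le_right _ _),
      Subsingleton.elim _ _, ?_⟩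
    intro e s t _
    exact ⟨homOfLE (le_min (leOfHom s) (leOfHom t)), Subsingleton.elim _ _, Subsingleton.elim _ _⟩
  · rintro n ⟨h, -⟩
    exact absurd (leOfHom h) (Nat.not_succ_le_self n)
  · intro x
    exact ⟨homOfLE (Nat.zero_le x)⟩

theorem exists_base : ∃ (R : Raw UU) (ac kc : ℕ → UU), Small.{0} R.S ∧ RSt ac kc R := by
  obtain ⟨fr, hfr, -⟩ := exists_fresh (∅ : Set UU) (Σ x y : ℕ, (x ⟶ y))
  let g : ∀ {x y : ℕ}, (x ⟶ y) → UU := fun {x y} f => fr ⟨x, y, f⟩
  have hg : ∀ {x y x' y' : ℕ} (f : x ⟶ y) (f' : x' ⟶ y'), g f = g f' →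
      (⟨x, y, f⟩ : Σ x y : ℕ, (x ⟶ y)) = ⟨x', y', f'⟩ := fun _ _ h => hfr h
  let c : Coding ℕ (ofInj g) := ofInjCoding hg
  refine ⟨ofInj g, fun n => c.code (𝟙 n), fun n => c.code (homOfLE (Nat.le_succ n)), ?_,
    c.rst isStage_nat (fun _ => rfl) (fun _ => rfl)⟩
  have : (ofInj g).S = Set.range (fun z : Σ x y : ℕ, (x ⟶ y) => g z.2.2) := by
    ext s
    constructor
    · rintro ⟨x, y, f, rfl⟩
      exact ⟨⟨x, y, f⟩, rfl⟩
    · rintro ⟨⟨x, y, f⟩, rfl⟩
      exact ⟨x, y, f, rfl⟩
  rw [this]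
  infer_instance

/-! ### The recursion -/

section Tower

variable (ac kc : ℕ → UU)

open Classical in
/-- the successor stage -/
noncomputable def next (R : Raw UU) : Raw UU :=
  if h : ∃ R' : Raw UU, Small.{0} R'.S ∧ RSt ac kc R' ∧ Good R R' ∧ Nonempty (LD ac kc R R')
  then h.choose else R

/-- the stages -/
noncomputable def stg (R0 : Raw UU) (i : Ordinal.{0}) : Raw UU :=
  Ordinal.limitRecOn (motive := fun _ => Raw UU) i R0 (fun _ R => next ac kc R)
    (fun i _ F => union (fun j : Set.Iio i => F j.1 j.2))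

variable {ac kc}

theorem next_spec (hstep : HStep) {R : Raw UU} (hR : RSt ac kc R) (hs : Small.{0} R.S) :
    Small.{0} (next ac kc R).S ∧ RSt ac kc (next ac kc R) ∧ Good R (next ac kc R) ∧
      Nonempty (LD ac kc R (next ac kc R)) := by
  have h := exists_next hstep hR hs
  have e : next ac kc R = h.choose := dif_pos h
  rw [e]
  exact h.choose_spec

variable {R0 : Raw UU}

theorem stg_zero : stg ac kc R0 0 = R0 := Ordinal.limitRecOn_zero ..

theorem stg_succ (i : Ordinal.{0}) : stg ac kc R0 (i + 1) = next ac kc (stg ac kc R0 i) :=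
  Ordinal.limitRecOn_add_one ..

theorem stg_lim {i : Ordinal.{0}} (hi : Order.IsSuccLimit i) :
    stg ac kc R0 i = union (fun j : Set.Iio i => stg ac kc R0 j.1) :=
  Ordinal.limitRecOn_limit _ _ _ _ hi

theorem stg_spec (hstep : HStep) (h0 : Small.{0} R0.S) (h0' : RSt ac kc R0) (i : Ordinal.{0}) :
    Small.{0} (stg ac kc R0 i).S ∧ RSt ac kc (stg ac kc R0 i) ∧
      ∀ j, j ≤ i → Good (stg ac kc R0 j) (stg ac kc R0 i) := by
  induction i using Ordinal.limitRecOn with
  | zero =>
    refine ⟨by rw [stg_zero]; exact h0, by rw [stg_zero]; exact h0', ?_⟩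
    intro j hj
    have : j = 0 := le_antisymm hj zero_le
    subst this
    exact Good.refl _
  | add_one i ih =>
    obtain ⟨h1, h2, h3⟩ := ih
    obtain ⟨n1, n2, n3, -⟩ := next_spec hstep h2 h1
    refine ⟨by rw [stg_succ]; exact n1, by rw [stg_succ]; exact n2, ?_⟩
    intro j hj
    rcases eq_or_lt_of_le hj with rfl | hj
    · exact Good.refl _
    · rw [stg_succ]
      exact (h3 j (Order.lt_add_one_iff.1 hj)).trans n3
  | limit i hi ih =>
    have hdir : ∀ j k : Set.Iio i, ∃ l : Set.Iio i,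
        Good (stg ac kc R0 j.1) (stg ac kc R0 l.1) ∧ Good (stg ac kc R0 k.1) (stg ac kc R0 l.1) := by
      intro j k
      rcases le_total j.1 k.1 with h | h
      · exact ⟨k, (ih k.1 k.2).2.2 _ h, Good.refl _⟩
      · exact ⟨j, Good.refl _, (ih j.1 j.2).2.2 _ h⟩
    have hpos : (0 : Ordinal.{0}) < i := hi.bot_lt
    have : Nonempty (Set.Iio i) := ⟨⟨0, hpos⟩⟩
    refine ⟨?_, ?_, ?_⟩
    · rw [stg_lim hi]
      have : (union (fun j : Set.Iio i => stg ac kc R0 j.1)).S =
          ⋃ j : Set.Iio i, (stg ac kc R0 j.1).S := by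
        ext s
        rw [Set.mem_iUnion]
        exact Iff.rfl
      rw [this]
      have : ∀ j : Set.Iio i, Small.{0} (stg ac kc R0 j.1).S := fun j => (ih j.1 j.2).1
      exact small_iUnion _
    · rw [stg_lim hi]
      exact union_st (F := fun j : Set.Iio i => stg ac kc R0 j.1) hdir
        (fun j => (ih j.1 j.2).2.1)
    · intro j hj
      rcases eq_or_lt_of_le hj with rfl | hj
      · exact Good.refl _
      · rw [stg_lim hi]
        exact union_good (F := fun j : Set.Iio i => stg ac kc R0 j.1) hdir ⟨j, hj⟩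

end Tower

/-! ### The final category -/

theorem Coding.code_eqToHom {U : Type u} {C : Type w} [Category.{v} C] {R : Raw U}
    (c : Coding C R) {x y : C} (h : x = y) : c.code (eqToHom h) = c.code (𝟙 x) := by
  subst h; rfl

theorem Coding.code_eqToHom' {U : Type u} {C : Type w} [Category.{v} C] {R : Raw U}
    (c : Coding C R) {x y : C} (h : x = y) : c.code (eqToHom h) = c.code (𝟙 y) := by
  subst h; rfl

theorem Coding.code_comp_eqToHom {U : Type u} {C : Type w} [Category.{v} C] {R : Raw U}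
    (c : Coding C R) {x y z : C} (f : x ⟶ y) (h : y = z) : c.code (f ≫ eqToHom h) = c.code f := by
  subst h; simp

theorem Coding.code_eqToHom_comp {U : Type u} {C : Type w} [Category.{v} C] {R : Raw U}
    (c : Coding C R) {x y z : C} (h : x = y) (f : y ⟶ z) : c.code (eqToHom h ≫ f) = c.code f := by
  subst h; simp

/-- the functor between typed categories induced by an inclusion of raw ones -/
def fun' {U : Type u} {C : Type w} [Category.{v} C] {R R' : Raw U} (c : Coding C R)
    (l : RLe R R') (h : IsCat R') : C ⥤ TO R' h (Equiv.refl _) where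
  obj x := ⟨⟨c.code (𝟙 x), l.sub (c.mem _)⟩, by
    show R'.src (c.code (𝟙 x)) = _
    rw [l.src (c.mem _), c.src]; rfl⟩
  map {x y} f := (⟨⟨c.code f, l.sub (c.mem _)⟩, by
    show R'.src (c.code f) = _
    rw [l.src (c.mem _), c.src]; rfl, by
    show R'.tgt (c.code f) = _
    rw [l.tgt (c.mem _), c.tgt]; rfl⟩ : TH _ _)
  map_id x := rfl
  map_comp {x y z} f g := by
    refine TH.ext (Subtype.ext ?_)
    show c.code (f ≫ g) = R'.comp (c.code f) (c.code g)
    rw [l.comp (c.mem _) (c.mem _) (by rw [c.src, c.tgt]), c.comp]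

theorem fun'_code {U : Type u} {C : Type w} [Category.{v} C] {R R' : Raw U} (c : Coding C R)
    (l : RLe R R') (h : IsCat R') {x y : C} (f : x ⟶ y) :
    (toCoding R' h (Equiv.refl _)).code ((fun' c l h).map f) = c.code f := rfl

theorem fun'_code_id {U : Type u} {C : Type w} [Category.{v} C] {R R' : Raw U} (c : Coding C R)
    (l : RLe R R') (h : IsCat R') (x : C) :
    (toCoding R' h (Equiv.refl _)).code (𝟙 ((fun' c l h).obj x)) = c.code (𝟙 x) := rfl

/-- **the chain**: base category of the tower and a chart at every stage -/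
theorem exists_charts (hstep : HStep) : ∃ (D : Type 1) (_ : Category.{1} D) (_ : TwBase D),
    ∀ i : Ordinal.{0}, Nonempty (Chart D i) := by
  obtain ⟨R0, ac, kc, h0, h0'⟩ := exists_base
  have spec := stg_spec hstep h0 h0'
  let F : Ordinal.{0} → Raw UU := fun i => stg ac kc R0 i
  have hdir : ∀ j k, ∃ l, Good (F j) (F l) ∧ Good (F k) (F l) := by
    intro j k
    rcases le_total j k with h | h
    · exact ⟨k, (spec k).2.2 _ h, Good.refl _⟩
    · exact ⟨j, Good.refl _, (spec j).2.2 _ h⟩
  have L : ∀ i, Good (F i) (union F) := union_good hdir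
  have hst : RSt ac kc (union F) := union_st hdir (fun j => (spec j).2.1)
  have hcat := hst.cat
  let D := TO (union F) hcat (Equiv.refl _)
  let c : Coding D (union F) := toCoding (union F) hcat (Equiv.refl _)
  have h1 : ∀ n, ∃ x : D, c.code (𝟙 x) = ac n := fun n => c.obj (hst.a_mem n) (hst.a_src n)
  choose a ha using h1
  have h2 : ∀ n, ∃ f : a n ⟶ a (n + 1), c.code f = kc n := fun n =>
    c.lift (hst.k_mem n) (by rw [hst.k_src, ha]) (by rw [hst.k_tgt, ha])
  choose ι hk using h2
  have hS : IsStage D a ι := c.stage hst ha hk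
  have hcl : ∀ i, IsCat (F i) := fun i => (spec i).2.1.cat
  have srcF : ∀ {i : Ordinal.{0}} {x y : D} {f : x ⟶ y}, c.code f ∈ (F i).S →
      (F i).src (c.code f) = c.code (𝟙 x) := by
    intro i x y f hf
    rw [← (L i).le.src hf, c.src]
  have tgtF : ∀ {i : Ordinal.{0}} {x y : D} {f : x ⟶ y}, c.code f ∈ (F i).S →
      (F i).tgt (c.code f) = c.code (𝟙 y) := by
    intro i x y f hf
    rw [← (L i).le.tgt hf, c.tgt]
  let B : TwBase D :=
    { Mem := fun i {x y} f => c.code f ∈ (F i).S
      mono := hS.mono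
      mem_src := by
        intro i x y f hf
        show c.code (𝟙 x) ∈ (F i).S
        rw [← srcF hf]
        exact (hcl i).src_mem hf
      mem_tgt := by
        intro i x y f hf
        show c.code (𝟙 y) ∈ (F i).S
        rw [← tgtF hf]
        exact (hcl i).tgt_mem hf
      mem_comp := by
        intro i x y z f g hf hg
        show c.code (f ≫ g) ∈ (F i).S
        have e : (F i).tgt (c.code f) = (F i).src (c.code g) := by rw [tgtF hf, srcF hg]
        rw [← c.comp, (L i).le.comp hf hg e]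
        exact (hcl i).comp_mem hf hg e
      mem_mono := by
        intro i j x y f hij hf
        exact ((spec j).2.2 i hij).le.sub hf
      mem_div := by
        intro i x y z f g hfg hg
        refine (L i).div (c.mem f) hg (by rw [c.tgt, c.src]) ?_
        rw [c.comp]
        exact hfg
      mem_lim := by
        intro i hi x y f hf
        have hf : c.code f ∈ (stg ac kc R0 i).S := hf
        rw [stg_lim hi] at hf
        obtain ⟨j, hj⟩ := hf
        exact ⟨j.1, j.2, hj⟩
      mem_ex := fun f => c.mem f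
      small := by
        intro i
        have : Small.{0} (F i).S := (spec i).1
        refine small_of_injective (β := (F i).S) (f := fun z => ⟨c.code z.1.2.2, z.2⟩) ?_
        rintro ⟨⟨x, y, f⟩, hf⟩ ⟨⟨x', y', f'⟩, hf'⟩ h
        refine Subtype.ext ?_
        have h' : c.code f = c.code f' := congrArg (fun s : (F i).S => s.1) h
        exact c.inj _ _ h'
      pb := by
        intro i x y b f g hf hg
        obtain ⟨p, q, hpq⟩ := (spec i).2.1.pbx hf hg (by rw [tgtF hf, tgtF hg])
        have hpq' := (L i).pb hpq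
        have hp := hpq.hp
        have hq := hpq.hq
        obtain ⟨z, x', p, rfl⟩ := c.surj hpq'.hp
        obtain rfl := c.ends_eq hpq'.pf
        have e1 := hpq'.pq
        rw [c.src] at e1
        have e2 := hpq'.qg
        rw [c.src] at e2
        obtain ⟨q, rfl⟩ := c.lift hpq'.hq e1.symm e2
        exact ⟨z, p, q, hp, hq, c.pb_uncode hpq'⟩
      a := a
      ι := ι
      ι_mem := by
        intro n
        show c.code (ι n) ∈ (F 0).S
        rw [hk]
        exact (spec 0).2.1.k_mem n
      ι_not := hS.ι_not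
      from_a0 := hS.from_a0 }
  refine ⟨D, inferInstance, B, ?_⟩
  intro i
  have hn := (next_spec hstep (spec i).2.1 (spec i).1).2.2.2
  rw [← stg_succ] at hn
  obtain ⟨X⟩ := hn
  let _ := X.catS
  let Fn : X.st.T ⥤ D := fun' X.c' (L (i + 1)).le hcat
  have fc : ∀ {x y : X.st.T} (f : x ⟶ y), c.code (Fn.map f) = X.c'.code f := fun _ => rfl
  have fo : ∀ (x : X.st.T), c.code (𝟙 (Fn.obj x)) = X.c'.code (𝟙 x) := fun _ => rfl
  have fo' : ∀ (x : X.S), c.code (𝟙 (Fn.obj (X.st.Φ.obj x))) = X.c.code (𝟙 x) := fun x => by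
    rw [fo, ← X.st.Φ.map_id, X.compat]
  have hobj : ∀ n, a n = Fn.obj (X.st.Φ.obj (X.a n)) := fun n => by
    refine c.obj_inj ?_
    rw [ha, fo', X.ha]
  refine ⟨@Chart.mk D _ B i X.S X.catS X.a X.ι X.st Fn ?_ ?_ ?_ ?_ ?_ ?_ ?_ ?_ ?_
    (fun n => eqToIso (hobj n)) ?_ ?_ ?_⟩
  · intro x y h
    refine X.c'.obj_inj ?_
    rw [← fo, ← fo, h]
  · intro x y f g h
    refine X.c'.hom_inj ?_
    rw [← fc, ← fc, h]
  · intro x y f
    show c.code (Fn.map f) ∈ (F (i + 1)).S
    rw [fc]
    exact X.c'.mem f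
  · intro x hx
    have hx : c.code (𝟙 x) ∈ (F (i + 1)).S := hx
    obtain ⟨x', hx'⟩ := X.c'.obj hx (by rw [← (L (i + 1)).le.src hx, c.src])
    exact ⟨x', c.obj_inj (by rw [fo, hx'])⟩
  · intro x y g hg
    have hg : c.code g ∈ (F (i + 1)).S := hg
    obtain ⟨f, hf⟩ := X.c'.lift (x := x) (y := y) hg (srcF hg) (tgtF hg)
    exact ⟨f, c.hom_inj (by rw [fc, hf])⟩
  · intro z x y b p q f g h
    exact c.pb_uncode ((L (i + 1)).pb (X.c'.pb_code h))
  · intro x y f
    show c.code (Fn.map (X.st.Φ.map f)) ∈ (F i).S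
    rw [fc, X.compat]
    exact X.c.mem f
  · intro x hx
    have hx : c.code (𝟙 x) ∈ (F i).S := hx
    obtain ⟨x', hx'⟩ := X.c.obj hx (by rw [← (L i).le.src hx, c.src])
    exact ⟨x', c.obj_inj (by rw [fo', hx'])⟩
  · intro x y g hg
    have hg : c.code g ∈ (F i).S := hg
    obtain ⟨f, hf⟩ := X.c.lift (x := x) (y := y) hg ((srcF hg).trans (fo' x))
      ((tgtF hg).trans (fo' y))
    exact ⟨f, c.hom_inj (by rw [fc, X.compat, hf])⟩
  · intro n
    show c.code (eqToHom (hobj n)) ∈ (F i).S
    rw [c.code_eqToHom, ha]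
    exact (spec i).2.1.a_mem n
  · intro n
    show c.code (eqToHom (hobj n).symm) ∈ (F i).S
    rw [c.code_eqToHom', ha]
    exact (spec i).2.1.a_mem n
  · intro n
    refine c.hom_inj ?_
    show c.code (ι n ≫ eqToHom (hobj (n + 1))) = c.code (eqToHom (hobj n) ≫ Fn.map (X.st.Φ.map (X.ι n)))
    rw [c.code_comp_eqToHom, c.code_eqToHom_comp, fc, X.compat, X.hk, hk]

end Vale.Agent.P323.H709
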