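import Vale.Agent.P323.H709.Raw
import Vale.Agent.P323.Z.Step

/-!
# Codings: identification of a typed category with a raw one
-/

namespace Vale.Agent.P323.H709

open CategoryTheory Vale.Agent.P323.Z

universe w v u w' v'

variable {U : Type u}

/-- an isomorphism between a typed category `C` and the raw category `R` -/
structure Coding (C : Type w) [Category.{v} C] (R : Raw U) where
  code : ∀ {x y : C}, (x ⟶ y) → U
  inj : ∀ {x y x' y' : C} (f : x ⟶ y) (f' : x' ⟶ y'), code f = code f' →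
    (⟨x, y, f⟩ : Σ x y : C, (x ⟶ y)) = ⟨x', y', f'⟩
  mem : ∀ {x y : C} (f : x ⟶ y), code f ∈ R.S
  surj : ∀ {s}, s ∈ R.S → ∃ (x y : C) (f : x ⟶ y), code f = s
  src : ∀ {x y : C} (f : x ⟶ y), R.src (code f) = code (𝟙 x)
  tgt : ∀ {x y : C} (f : x ⟶ y), R.tgt (code f) = code (𝟙 y)
  comp : ∀ {x y z : C} (f : x ⟶ y) (g : y ⟶ z), R.comp (code f) (code g) = code (f ≫ g)

namespace Coding

variable {C : Type w} [Category.{v} C] {R : Raw U} (c : Coding C R)

theorem obj_inj {x y : C} (h : c.code (𝟙 x) = c.code (𝟙 y)) : x = y :=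
  congrArg Sigma.fst (c.inj _ _ h)

theorem hom_inj {x y : C} {f g : x ⟶ y} (h : c.code f = c.code g) : f = g := by
  have := c.inj _ _ h
  simpa using this

theorem lift {x y : C} {s : U} (hs : s ∈ R.S) (h1 : R.src s = c.code (𝟙 x))
    (h2 : R.tgt s = c.code (𝟙 y)) : ∃ f : x ⟶ y, c.code f = s := by
  obtain ⟨x', y', f, rfl⟩ := c.surj hs
  rw [c.src] at h1
  rw [c.tgt] at h2
  obtain rfl := c.obj_inj h1
  obtain rfl := c.obj_inj h2
  exact ⟨f, rfl⟩

theorem obj {s : U} (hs : s ∈ R.S) (h1 : R.src s = s) : ∃ x : C, c.code (𝟙 x) = s := by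
  obtain ⟨x', y', f, rfl⟩ := c.surj hs
  rw [c.src] at h1
  exact ⟨x', h1⟩

theorem ends_eq {x y x' y' : C} {f : x ⟶ y} {f' : x' ⟶ y'} (h : R.tgt (c.code f) = R.src (c.code f')) :
    y = x' := by
  rw [c.tgt, c.src] at h
  exact c.obj_inj h

include c in
theorem isCat : IsCat R := by
  refine ⟨?_, ?_, ?_, ?_, ?_, ?_, ?_, ?_, ?_, ?_, ?_, ?_⟩
  · intro f hf
    obtain ⟨x, y, f, rfl⟩ := c.surj hf
    rw [c.src]; exact c.mem _
  · intro f hf
    obtain ⟨x, y, f, rfl⟩ := c.surj hf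
    rw [c.tgt]; exact c.mem _
  · intro f hf
    obtain ⟨x, y, f, rfl⟩ := c.surj hf
    rw [c.src, c.src]
  · intro f hf
    obtain ⟨x, y, f, rfl⟩ := c.surj hf
    rw [c.src, c.tgt]
  · intro f hf
    obtain ⟨x, y, f, rfl⟩ := c.surj hf
    rw [c.tgt, c.src]
  · intro f hf
    obtain ⟨x, y, f, rfl⟩ := c.surj hf
    rw [c.tgt, c.tgt]
  · intro f g hf hg h
    obtain ⟨x, y, f, rfl⟩ := c.surj hf
    obtain ⟨y', z, g, rfl⟩ := c.surj hg
    obtain rfl := c.ends_eq h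
    rw [c.comp]; exact c.mem _
  · intro f g hf hg h
    obtain ⟨x, y, f, rfl⟩ := c.surj hf
    obtain ⟨y', z, g, rfl⟩ := c.surj hg
    obtain rfl := c.ends_eq h
    rw [c.comp, c.src, c.src]
  · intro f g hf hg h
    obtain ⟨x, y, f, rfl⟩ := c.surj hf
    obtain ⟨y', z, g, rfl⟩ := c.surj hg
    obtain rfl := c.ends_eq h
    rw [c.comp, c.tgt, c.tgt]
  · intro f hf
    obtain ⟨x, y, f, rfl⟩ := c.surj hf
    rw [c.src, c.comp, Category.id_comp]
  · intro f hf
    obtain ⟨x, y, f, rfl⟩ := c.surj hf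
    rw [c.tgt, c.comp, Category.comp_id]
  · intro f g k hf hg hk h h'
    obtain ⟨x, y, f, rfl⟩ := c.surj hf
    obtain ⟨y', z, g, rfl⟩ := c.surj hg
    obtain ⟨z', v, k, rfl⟩ := c.surj hk
    obtain rfl := c.ends_eq h
    obtain rfl := c.ends_eq h'
    rw [c.comp, c.comp, c.comp, c.comp, Category.assoc]

theorem pb_code {z x y b : C} {p : z ⟶ x} {q : z ⟶ y} {f : x ⟶ b} {g : y ⟶ b}
    (h : IsPB p q f g) : RPB R (c.code p) (c.code q) (c.code f) (c.code g) := by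
  refine ⟨c.mem _, c.mem _, c.mem _, c.mem _, ?_, ?_, ?_, ?_, ?_, ?_⟩
  · rw [c.src, c.src]
  · rw [c.src, c.tgt]
  · rw [c.src, c.tgt]
  · rw [c.tgt, c.tgt]
  · rw [c.comp, c.comp, h.1]
  · intro s t hs ht e1 e2 e3 e4
    obtain ⟨e, x', s, rfl⟩ := c.surj hs
    obtain rfl := c.ends_eq e2
    rw [c.src] at e1
    rw [c.src] at e3
    obtain ⟨t, rfl⟩ := c.lift ht e1.symm e3
    rw [c.comp, c.comp] at e4
    obtain ⟨w, h1, h2⟩ := h.2 s t (c.hom_inj e4)
    refine ⟨c.code w, c.mem _, ?_, ?_, ?_, ?_⟩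
    · rw [c.src, c.src]
    · rw [c.tgt, c.src]
    · rw [c.comp, h1]
    · rw [c.comp, h2]

theorem pb_uncode {z x y b : C} {p : z ⟶ x} {q : z ⟶ y} {f : x ⟶ b} {g : y ⟶ b}
    (h : RPB R (c.code p) (c.code q) (c.code f) (c.code g)) : IsPB p q f g := by
  refine ⟨?_, ?_⟩
  · have := h.sq
    rw [c.comp, c.comp] at this
    exact c.hom_inj this
  · intro e s t hst
    obtain ⟨x', hx, h1, h2, h3, h4⟩ := h.lift (c.mem s) (c.mem t) (by rw [c.src, c.src])
      (by rw [c.src, c.tgt]) (by rw [c.src, c.tgt]) (by rw [c.comp, c.comp, hst])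
    rw [c.src] at h1
    rw [c.src] at h2
    obtain ⟨w, rfl⟩ := c.lift hx h1 h2
    rw [c.comp] at h3 h4
    exact ⟨w, c.hom_inj h3, c.hom_inj h4⟩

/-- typed stage axioms give raw ones -/
theorem rst {C : Type w} [Category.{w} C] {R : Raw U} (c : Coding C R) {a : ℕ → C}
    {ι : ∀ n, a n ⟶ a (n + 1)} (h : IsStage C a ι) {ac kc : ℕ → U}
    (ha : ∀ n, c.code (𝟙 (a n)) = ac n) (hk : ∀ n, c.code (ι n) = kc n) : RSt ac kc R := by
  refine ⟨c.isCat, ?_, ?_, ?_, ?_, ?_, ?_, ?_, ?_, ?_⟩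
  · intro x y f hx hy hf e1 e2 e3 e4
    obtain ⟨d, b, f, rfl⟩ := c.surj hf
    obtain ⟨e, d', x, rfl⟩ := c.surj hx
    obtain rfl := c.ends_eq e2
    rw [c.src] at e1
    rw [c.src] at e3
    obtain ⟨y, rfl⟩ := c.lift hy e1.symm e3
    rw [c.comp, c.comp] at e4
    have := h.mono f
    rw [(cancel_mono f).1 (c.hom_inj e4)]
  · intro f g hf hg e
    obtain ⟨x, b, f, rfl⟩ := c.surj hf
    obtain ⟨y, b', g, rfl⟩ := c.surj hg
    rw [c.tgt, c.tgt] at e
    obtain rfl := c.obj_inj e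
    obtain ⟨z, p, q, hpq⟩ := h.pb f g
    exact ⟨_, _, c.pb_code hpq⟩
  · intro n; rw [← ha n]; exact c.mem _
  · intro n; rw [← ha n, c.src]
  · intro n; rw [← hk n]; exact c.mem _
  · intro n; rw [← hk n, c.src, ha]
  · intro n; rw [← hk n, c.tgt, ha]
  · intro n x hx e1 e2 e3
    rw [← ha] at e1 e2
    obtain ⟨x, rfl⟩ := c.lift hx e1 e2
    rw [← hk n, c.comp, ← ha] at e3
    exact h.ι_not n ⟨x, c.hom_inj e3⟩
  · intro x hx e1
    obtain ⟨x, rfl⟩ := c.obj hx e1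
    obtain ⟨f⟩ := h.from_a0 x
    exact ⟨c.code f, c.mem _, by rw [c.src, ha], by rw [c.tgt]⟩

/-- raw stage axioms give typed ones -/
theorem stage {C : Type w} [Category.{w} C] {R : Raw U} (c : Coding C R) {ac kc : ℕ → U}
    (h : RSt ac kc R) {a : ℕ → C} {ι : ∀ n, a n ⟶ a (n + 1)}
    (ha : ∀ n, c.code (𝟙 (a n)) = ac n) (hk : ∀ n, c.code (ι n) = kc n) : IsStage C a ι := by
  refine ⟨?_, ?_, ?_, ?_⟩
  · intro x y f
    refine ⟨fun {e} s t hst => ?_⟩
    exact c.hom_inj (h.mono (c.mem s) (c.mem t) (c.mem f) (by rw [c.src, c.src])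
      (by rw [c.src, c.tgt]) (by rw [c.src, c.tgt]) (by rw [c.comp, c.comp, hst]))
  · intro x y b f g
    obtain ⟨p, q, hpq⟩ := h.pbx (c.mem f) (c.mem g) (by rw [c.tgt, c.tgt])
    obtain ⟨z, x', p, rfl⟩ := c.surj hpq.hp
    obtain rfl := c.ends_eq hpq.pf
    have e1 := hpq.pq
    rw [c.src] at e1
    have e2 := hpq.qg
    rw [c.src] at e2
    obtain ⟨q, rfl⟩ := c.lift hpq.hq e1.symm e2
    exact ⟨z, p, q, c.pb_uncode hpq⟩
  · rintro n ⟨x, hx⟩
    refine h.k_not n (c.code x) (c.mem _) (by rw [c.src, ha]) (by rw [c.tgt, ha]) ?_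
    rw [← hk n, c.comp, hx, ha]
  · intro x
    obtain ⟨f, hf, e1, e2⟩ := h.from_a0 (c.code (𝟙 x)) (c.mem _) (by rw [c.src])
    rw [← ha] at e1
    obtain ⟨f, -⟩ := c.lift hf e1 e2
    exact ⟨f⟩

end Coding

/-! ### The typed category of a raw category -/

section TO

variable {R : Raw U} {T : Type w}

/-- objects: codes of identities, indexed by `T ≃ R.S` -/
structure TO (R : Raw U) (h : IsCat R) (e : T ≃ R.S) where
  t : T
  ht : R.src (e t).1 = (e t).1

@[ext]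
structure TH {h : IsCat R} {e : T ≃ R.S} (x y : TO R h e) where
  t : T
  hs : R.src (e t).1 = (e x.t).1
  ht : R.tgt (e t).1 = (e y.t).1

variable {h : IsCat R} {e : T ≃ R.S}

theorem TO.tgt (x : TO R h e) : R.tgt (e x.t).1 = (e x.t).1 := by
  have := h.tgt_src (e x.t).2
  rwa [x.ht] at this

instance : Category.{w} (TO R h e) where
  Hom x y := TH x y
  id x := ⟨x.t, x.ht, x.tgt⟩
  comp {x y z} f g := ⟨e.symm ⟨R.comp (e f.t).1 (e g.t).1,
      h.comp_mem (e f.t).2 (e g.t).2 (f.ht.trans g.hs.symm)⟩,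
    by rw [e.apply_symm_apply]; exact (h.src_comp (e f.t).2 (e g.t).2 (f.ht.trans g.hs.symm)).trans f.hs,
    by rw [e.apply_symm_apply]; exact (h.tgt_comp (e f.t).2 (e g.t).2 (f.ht.trans g.hs.symm)).trans g.ht⟩
  id_comp {x y} f := by
    refine TH.ext (e.injective (Subtype.ext ?_))
    simp only [e.apply_symm_apply]
    rw [← f.hs]
    exact h.id_comp (e f.t).2
  comp_id {x y} f := by
    refine TH.ext (e.injective (Subtype.ext ?_))
    simp only [e.apply_symm_apply]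
    rw [← f.ht]
    exact h.comp_id (e f.t).2
  assoc {x y z v} f g k := by
    refine TH.ext (e.injective (Subtype.ext ?_))
    simp only [e.apply_symm_apply]
    exact h.assoc (e f.t).2 (e g.t).2 (e k.t).2 (f.ht.trans g.hs.symm) (g.ht.trans k.hs.symm)

/-- the coding of the typed category of `R` -/
def toCoding (R : Raw U) (h : IsCat R) (e : T ≃ R.S) : Coding (TO R h e) R where
  code {x y} f := (e (TH.t f)).1
  inj := by
    rintro ⟨x, hx⟩ ⟨y, hy⟩ ⟨x', hx'⟩ ⟨y', hy'⟩ ⟨f, h1, h2⟩ ⟨f', h3, h4⟩ hh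
    have hf : f = f' := e.injective (Subtype.ext hh)
    subst hf
    have hx : x = x' := e.injective (Subtype.ext (h1.symm.trans h3))
    have hy : y = y' := e.injective (Subtype.ext (h2.symm.trans h4))
    subst hx
    subst hy
    rfl
  mem f := (e (TH.t f)).2
  surj := by
    intro s hs
    have h1 := h.src_mem hs
    have h2 := h.tgt_mem hs
    refine ⟨⟨e.symm ⟨_, h1⟩, ?_⟩, ⟨e.symm ⟨_, h2⟩, ?_⟩, ⟨e.symm ⟨s, hs⟩, ?_, ?_⟩, ?_⟩
    · simp only [e.apply_symm_apply]; exact h.src_src hs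
    · simp only [e.apply_symm_apply]; exact h.src_tgt hs
    · simp only [e.apply_symm_apply]
    · simp only [e.apply_symm_apply]
    · simp only [e.apply_symm_apply]
  src f := TH.hs f
  tgt f := TH.ht f
  comp f g := by
    show _ = (e (e.symm _)).1
    rw [e.apply_symm_apply]

end TO

end Vale.Agent.P323.H709
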