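import Vale.Agent.P323.H709.Chain
import Vale.Agent.P323.H436.TransferThm
import Vale.Agent.P323.H14.ExistsStep

/-!
# Existence of the tower
-/

namespace Vale.Agent.P323.H709

open CategoryTheory Vale.Agent.P323.Z

/-- **The tower exists.** -/
theorem exists_tower : ∃ (D : Type 1) (_ : Category.{1} D), Nonempty (Tw D) := by
  obtain ⟨D, hC, hB, hch⟩ := exists_charts (fun S _ a ι h => H14.exists_step h)
  exact ⟨D, hC, tw_of_charts hch⟩

end Vale.Agent.P323.H709
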