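import Vale.Agent.P323.H709.Coding
import Vale.Agent.P323.H436.Chart

/-!
# One step of the raw tower
-/

namespace Vale.Agent.P323.H709

open CategoryTheory Vale.Agent.P323.Z

universe w v u

section OfInj

variable {U : Type u} {T : Type w} [Category.{v} T] (g : ∀ {x y : T}, (x ⟶ y) → U)

open Classical in
/-- the raw category of codes of a typed category -/
noncomputable def ofInj : Raw U where
  S := {s | ∃ (x y : T) (f : x ⟶ y), g f = s}
  src s := if h : ∃ r, ∃ (x y : T) (f : x ⟶ y), g f = s ∧ g (𝟙 x) = r then h.choose else s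
  tgt s := if h : ∃ r, ∃ (x y : T) (f : x ⟶ y), g f = s ∧ g (𝟙 y) = r then h.choose else s
  comp s t := if h : ∃ r, ∃ (x y z : T) (f : x ⟶ y) (f' : y ⟶ z),
      g f = s ∧ g f' = t ∧ g (f ≫ f') = r then h.choose else s

variable {g}

/-- the coding of a typed category in its raw category of codes -/
noncomputable def ofInjCoding (hg : ∀ {x y x' y' : T} (f : x ⟶ y) (f' : x' ⟶ y'), g f = g f' →
    (⟨x, y, f⟩ : Σ x y : T, (x ⟶ y)) = ⟨x', y', f'⟩) : Coding T (ofInj g) where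
  code f := g f
  inj := hg
  mem f := ⟨_, _, f, rfl⟩
  surj := fun ⟨x, y, f, h⟩ => ⟨x, y, f, h⟩
  src {x y} f := by
    have h : ∃ r, ∃ (x' y' : T) (f' : x' ⟶ y'), g f' = g f ∧ g (𝟙 x') = r :=
      ⟨_, x, y, f, rfl, rfl⟩
    have e : (ofInj g).src (g f) = h.choose := dif_pos h
    obtain ⟨x', y', f', h1, h2⟩ := h.choose_spec
    rw [e, ← h2]
    have := hg _ _ h1
    cases this
    rfl
  tgt {x y} f := by
    have h : ∃ r, ∃ (x' y' : T) (f' : x' ⟶ y'), g f' = g f ∧ g (𝟙 y') = r :=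
      ⟨_, x, y, f, rfl, rfl⟩
    have e : (ofInj g).tgt (g f) = h.choose := dif_pos h
    obtain ⟨x', y', f', h1, h2⟩ := h.choose_spec
    rw [e, ← h2]
    have := hg _ _ h1
    cases this
    rfl
  comp {x y z} f f' := by
    have h : ∃ r, ∃ (x' y' z' : T) (k : x' ⟶ y') (k' : y' ⟶ z'), g k = g f ∧ g k' = g f' ∧
        g (k ≫ k') = r := ⟨_, x, y, z, f, f', rfl, rfl, rfl⟩
    have e : (ofInj g).comp (g f) (g f') = h.choose := dif_pos h
    obtain ⟨x', y', z', k, k', h1, h2, h3⟩ := h.choose_spec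
    rw [e, ← h3]
    have := hg _ _ h1
    cases this
    have := hg _ _ h2
    cases this
    rfl

end OfInj

/-- a square of codes comes from a typed square -/
theorem Coding.pb_lift {U : Type u} {C : Type w} [Category.{v} C] {R : Raw U} (c : Coding C R)
    {p q f g : U} (h : RPB R p q f g) : ∃ (z x y b : C) (p' : z ⟶ x) (q' : z ⟶ y) (f' : x ⟶ b)
      (g' : y ⟶ b), c.code p' = p ∧ c.code q' = q ∧ c.code f' = f ∧ c.code g' = g ∧
      IsPB p' q' f' g' := by
  obtain ⟨z, x, p, rfl⟩ := c.surj h.hp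
  obtain ⟨x', b, f, rfl⟩ := c.surj h.hf
  obtain rfl := c.ends_eq h.pf
  obtain ⟨y, b', g, rfl⟩ := c.surj h.hg
  have e := h.fg
  rw [c.tgt, c.tgt] at e
  obtain rfl := c.obj_inj e
  have e1 := h.pq
  rw [c.src] at e1
  have e2 := h.qg
  rw [c.src] at e2
  obtain ⟨q, rfl⟩ := c.lift h.hq e1.symm e2
  exact ⟨_, _, _, _, p, q, f, g, rfl, rfl, rfl, rfl, c.pb_uncode h⟩

/-- the type of codes -/
abbrev UU : Type 1 := Ordinal.{0}

theorem exists_fresh (s : Set UU) [Small.{0} s] (X : Type) : ∃ g : X → UU,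
    Function.Injective g ∧ ∀ x, g x ∉ s := by
  obtain ⟨β, hβ⟩ := Ordinal.bddAbove_of_small (s := s)
  refine ⟨fun x => β + 1 + (embeddingToCardinal x).ord, ?_, ?_⟩
  · intro x y h
    have h1 : (embeddingToCardinal x).ord = (embeddingToCardinal y).ord := by
      simpa using h
    exact embeddingToCardinal.injective (Cardinal.ord_injective h1)
  · intro x hx
    have h1 : β + 1 + (embeddingToCardinal x).ord ≤ β := hβ hx
    have h2 : β + 1 ≤ β + 1 + (embeddingToCardinal x).ord := le_self_add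
    have h3 : β < β + 1 := lt_add_one β
    exact absurd (h3.trans_le (h2.trans h1)) (lt_irrefl _)

/-- level data: the typed step realised between the raw stages `R` and `R'` -/
structure LD (ac kc : ℕ → UU) (R R' : Raw UU) where
  S : Type
  [catS : Category.{0} S]
  a : ℕ → S
  ι : ∀ n, a n ⟶ a (n + 1)
  st : Step S a ι
  c : Coding S R
  c' : Coding st.T R'
  compat : ∀ {x y : S} (f : x ⟶ y), c'.code (st.Φ.map f) = c.code f
  ha : ∀ n, c.code (𝟙 (a n)) = ac n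
  hk : ∀ n, c.code (ι n) = kc n

theorem exists_ext {ac kc : ℕ → UU} {R : Raw UU} [Small.{0} R.S] {S : Type} [Category.{0} S]
    {a : ℕ → S} {ι : ∀ n, a n ⟶ a (n + 1)} (st : Step S a ι) (c : Coding S R)
    (ha : ∀ n, c.code (𝟙 (a n)) = ac n) (hk : ∀ n, c.code (ι n) = kc n) :
    ∃ R' : Raw UU, Small.{0} R'.S ∧ RSt ac kc R' ∧ Good R R' ∧ Nonempty (LD ac kc R R') := by
  classical
  -- the injection
  obtain ⟨fr, hfr, hfr'⟩ := exists_fresh R.S (Σ x y : st.T, (x ⟶ y))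
  let g : ∀ {x y : st.T}, (x ⟶ y) → UU := fun {x y} f =>
    if h : ∃ s, ∃ (x' y' : S) (f' : x' ⟶ y'), (⟨x, y, f⟩ : Σ x y : st.T, (x ⟶ y)) =
      ⟨st.Φ.obj x', st.Φ.obj y', st.Φ.map f'⟩ ∧ c.code f' = s then h.choose else fr ⟨x, y, f⟩
  have key : ∀ {x' y' x'' y'' : S} {f' : x' ⟶ y'} {f'' : x'' ⟶ y''},
      (⟨st.Φ.obj x', st.Φ.obj y', st.Φ.map f'⟩ : Σ x y : st.T, (x ⟶ y)) =
        ⟨st.Φ.obj x'', st.Φ.obj y'', st.Φ.map f''⟩ →
      (⟨x', y', f'⟩ : Σ x y : S, (x ⟶ y)) = ⟨x'', y'', f''⟩ := by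
    intro x' y' x'' y'' f' f'' h
    have h1 : x' = x'' := st.inj (congrArg Sigma.fst h)
    subst h1
    have h2 : st.Φ.obj y' = st.Φ.obj y'' := by
      have := (Sigma.mk.inj_iff.1 h).2
      have := eq_of_heq this
      exact congrArg Sigma.fst this
    have h2 := st.inj h2
    subst h2
    have h3 : st.Φ.map f' = st.Φ.map f'' := by simpa using h
    rw [st.faithful h3]
  have gold : ∀ {x y : S} (f : x ⟶ y), g (st.Φ.map f) = c.code f := by
    intro x y f
    have h : ∃ s, ∃ (x' y' : S) (f' : x' ⟶ y'),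
      (⟨st.Φ.obj x, st.Φ.obj y, st.Φ.map f⟩ : Σ x y : st.T, (x ⟶ y)) =
        ⟨st.Φ.obj x', st.Φ.obj y', st.Φ.map f'⟩ ∧ c.code f' = s := ⟨_, _, _, f, rfl, rfl⟩
    have e : g (st.Φ.map f) = h.choose := dif_pos h
    obtain ⟨x', y', f', h1, h2⟩ := h.choose_spec
    rw [e, ← h2]
    have := key h1
    cases this
    rfl
  have gnew : ∀ {x y : st.T} (f : x ⟶ y), (∃ (x' y' : S) (f' : x' ⟶ y'),
      (⟨x, y, f⟩ : Σ x y : st.T, (x ⟶ y)) = ⟨st.Φ.obj x', st.Φ.obj y', st.Φ.map f'⟩) ∨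
      g f = fr ⟨x, y, f⟩ := by
    intro x y f
    by_cases h : ∃ s, ∃ (x' y' : S) (f' : x' ⟶ y'), (⟨x, y, f⟩ : Σ x y : st.T, (x ⟶ y)) =
      ⟨st.Φ.obj x', st.Φ.obj y', st.Φ.map f'⟩ ∧ c.code f' = s
    · obtain ⟨s, x', y', f', h1, h2⟩ := h
      exact Or.inl ⟨x', y', f', h1⟩
    · exact Or.inr (dif_neg h)
  have hg : ∀ {x y x' y' : st.T} (f : x ⟶ y) (f' : x' ⟶ y'), g f = g f' →
      (⟨x, y, f⟩ : Σ x y : st.T, (x ⟶ y)) = ⟨x', y', f'⟩ := by
    intro x y x' y' f f' h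
    rcases gnew f with ⟨d, e, k, hk⟩ | h1
    · cases hk
      rcases gnew f' with ⟨d', e', k', hk'⟩ | h2
      · cases hk'
        rw [gold, gold] at h
        have := c.inj _ _ h
        cases this
        rfl
      · rw [gold, h2] at h
        exact absurd (c.mem k) (h ▸ hfr' _)
    · rcases gnew f' with ⟨d', e', k', hk'⟩ | h2
      · cases hk'
        rw [gold, h1] at h
        exact absurd (c.mem k') (h ▸ hfr' _)
      · rw [h1, h2] at h
        exact hfr h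
  let c' : Coding st.T (ofInj g) := ofInjCoding hg
  have compat : ∀ {x y : S} (f : x ⟶ y), c'.code (st.Φ.map f) = c.code f := gold
  refine ⟨ofInj g, ?_, ?_, ⟨⟨?_, ?_, ?_, ?_⟩, ?_, ?_⟩, ⟨⟨S, a, ι, st, c, c', compat, ha, hk⟩⟩⟩
  · have : (ofInj g).S = Set.range (fun z : Σ x y : st.T, (x ⟶ y) => g z.2.2) := by
      ext s
      constructor
      · rintro ⟨x, y, f, rfl⟩
        exact ⟨⟨x, y, f⟩, rfl⟩
      · rintro ⟨⟨x, y, f⟩, rfl⟩
        exact ⟨x, y, f, rfl⟩
    rw [this]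
    infer_instance
  · refine c'.rst st.stage (fun n => ?_) (fun n => ?_)
    · rw [← st.Φ.map_id, compat, ha]
    · rw [compat, hk]
  · intro s hs
    obtain ⟨x, y, f, rfl⟩ := c.surj hs
    rw [← compat]
    exact c'.mem _
  · intro s hs
    obtain ⟨x, y, f, rfl⟩ := c.surj hs
    rw [c.src, ← compat, ← compat, c'.src, st.Φ.map_id]
  · intro s hs
    obtain ⟨x, y, f, rfl⟩ := c.surj hs
    rw [c.tgt, ← compat, ← compat, c'.tgt, st.Φ.map_id]
  · intro s t hs ht h
    obtain ⟨x, y, f, rfl⟩ := c.surj hs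
    obtain ⟨y', z, k, rfl⟩ := c.surj ht
    obtain rfl := c.ends_eq h
    rw [c.comp, ← compat, ← compat, ← compat, c'.comp, st.Φ.map_comp]
  · intro p q f k h
    obtain ⟨z, x, y, b, p, q, f, k, rfl, rfl, rfl, rfl, hpb⟩ := c.pb_lift h
    rw [← compat, ← compat, ← compat, ← compat]
    exact c'.pb_code (st.pb hpb)
  · intro x y hx hy hxy hc
    obtain ⟨y0, z, y, rfl⟩ := c.surj hy
    obtain ⟨k, k', x, rfl⟩ := c'.surj hx
    rw [← compat] at hxy hc
    obtain rfl := c'.ends_eq hxy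
    rw [c'.comp] at hc
    obtain ⟨x0, z0, r, hr⟩ := c.surj hc
    rw [← compat] at hr
    have e := c'.inj _ _ hr
    have e1 : st.Φ.obj x0 = k := congrArg Sigma.fst e
    subst e1
    have e2 : st.Φ.obj z0 = st.Φ.obj z := by
      have := eq_of_heq (Sigma.mk.inj_iff.1 e).2
      exact congrArg Sigma.fst this
    have e2 := st.inj e2
    subst e2
    have e3 : st.Φ.map r = x ≫ st.Φ.map y := by simpa using e
    obtain ⟨m, rfl⟩ := st.div x y r e3.symm
    rw [compat]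
    exact c.mem _

/-- the hypothesis supplied by the one-step construction -/
def HStep : Prop := ∀ (S : Type) [Category.{0} S] (a : ℕ → S) (ι : ∀ n, a n ⟶ a (n + 1)),
  IsStage S a ι → Nonempty (Step S a ι)

theorem exists_next (hstep : HStep) {ac kc : ℕ → UU} {R : Raw UU} (hR : RSt ac kc R)
    (hs : Small.{0} R.S) :
    ∃ R' : Raw UU, Small.{0} R'.S ∧ RSt ac kc R' ∧ Good R R' ∧ Nonempty (LD ac kc R R') := by
  obtain ⟨T, ⟨e⟩⟩ := hs
  let e' : T ≃ R.S := e.symm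
  let c := toCoding R hR.cat e'
  have h1 : ∀ n, ∃ x : TO R hR.cat e', c.code (𝟙 x) = ac n := fun n =>
    c.obj (hR.a_mem n) (hR.a_src n)
  choose a ha using h1
  have h2 : ∀ n, ∃ f : a n ⟶ a (n + 1), c.code f = kc n := fun n =>
    c.lift (hR.k_mem n) (by rw [hR.k_src, ha]) (by rw [hR.k_tgt, ha])
  choose ι hk using h2
  obtain ⟨st⟩ := hstep _ a ι (c.stage hR ha hk)
  have : Small.{0} R.S := ⟨T, ⟨e⟩⟩
  exact exists_ext st c ha hk

end Vale.Agent.P323.H709
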