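import Vale.Agent.P323.Z.Tower

/-!
# Raw (single-sorted) categories inside a fixed type of codes
`Raw U`: a set of codes of arrows, with source, target and composition given by total functions
on `U` which only matter on the carrier.  Objects are the identity arrows.
-/

namespace Vale.Agent.P323.H709

open CategoryTheory Vale.Agent.P323.Z

universe w v u

structure Raw (U : Type u) where
  S : Set U
  src : U → U
  tgt : U → U
  comp : U → U → U

variable {U : Type u}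

structure IsCat (R : Raw U) : Prop where
  src_mem : ∀ {f}, f ∈ R.S → R.src f ∈ R.S
  tgt_mem : ∀ {f}, f ∈ R.S → R.tgt f ∈ R.S
  src_src : ∀ {f}, f ∈ R.S → R.src (R.src f) = R.src f
  tgt_src : ∀ {f}, f ∈ R.S → R.tgt (R.src f) = R.src f
  src_tgt : ∀ {f}, f ∈ R.S → R.src (R.tgt f) = R.tgt f
  tgt_tgt : ∀ {f}, f ∈ R.S → R.tgt (R.tgt f) = R.tgt f
  comp_mem : ∀ {f g}, f ∈ R.S → g ∈ R.S → R.tgt f = R.src g → R.comp f g ∈ R.S
  src_comp : ∀ {f g}, f ∈ R.S → g ∈ R.S → R.tgt f = R.src g → R.src (R.comp f g) = R.src f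
  tgt_comp : ∀ {f g}, f ∈ R.S → g ∈ R.S → R.tgt f = R.src g → R.tgt (R.comp f g) = R.tgt g
  id_comp : ∀ {f}, f ∈ R.S → R.comp (R.src f) f = f
  comp_id : ∀ {f}, f ∈ R.S → R.comp f (R.tgt f) = f
  assoc : ∀ {f g h}, f ∈ R.S → g ∈ R.S → h ∈ R.S → R.tgt f = R.src g → R.tgt g = R.src h →
    R.comp (R.comp f g) h = R.comp f (R.comp g h)

/-- literal inclusion with agreeing operations -/
structure RLe (R R' : Raw U) : Prop where
  sub : ∀ {f}, f ∈ R.S → f ∈ R'.S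
  src : ∀ {f}, f ∈ R.S → R'.src f = R.src f
  tgt : ∀ {f}, f ∈ R.S → R'.tgt f = R.tgt f
  comp : ∀ {f g}, f ∈ R.S → g ∈ R.S → R.tgt f = R.src g → R'.comp f g = R.comp f g

theorem RLe.refl (R : Raw U) : RLe R R := ⟨id, fun _ => rfl, fun _ => rfl, fun _ _ _ => rfl⟩

theorem RLe.trans {R R' R'' : Raw U} (h : RLe R R') (h' : RLe R' R'') : RLe R R'' where
  sub hf := h'.sub (h.sub hf)
  src hf := (h'.src (h.sub hf)).trans (h.src hf)
  tgt hf := (h'.tgt (h.sub hf)).trans (h.tgt hf)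
  comp hf hg hfg := (h'.comp (h.sub hf) (h.sub hg) (by rw [h.tgt hf, h.src hg, hfg])).trans
    (h.comp hf hg hfg)

/-- pullback squares, on codes -/
structure RPB (R : Raw U) (p q f g : U) : Prop where
  hp : p ∈ R.S
  hq : q ∈ R.S
  hf : f ∈ R.S
  hg : g ∈ R.S
  pq : R.src p = R.src q
  pf : R.tgt p = R.src f
  qg : R.tgt q = R.src g
  fg : R.tgt f = R.tgt g
  sq : R.comp p f = R.comp q g
  lift : ∀ {s t}, s ∈ R.S → t ∈ R.S → R.src s = R.src t → R.tgt s = R.src f → R.tgt t = R.src g →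
    R.comp s f = R.comp t g → ∃ x, x ∈ R.S ∧ R.src x = R.src s ∧ R.tgt x = R.src p ∧
      R.comp x p = s ∧ R.comp x q = t

/-- good extensions -/
structure Good (R R' : Raw U) : Prop where
  le : RLe R R'
  pb : ∀ {p q f g}, RPB R p q f g → RPB R' p q f g
  div : ∀ {x y}, x ∈ R'.S → y ∈ R.S → R'.tgt x = R'.src y → R'.comp x y ∈ R.S → x ∈ R.S

theorem Good.refl (R : Raw U) : Good R R := ⟨RLe.refl R, id, fun hx _ _ _ => hx⟩

theorem Good.trans {R R' R'' : Raw U} (h : Good R R') (h' : Good R' R'') : Good R R'' where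
  le := h.le.trans h'.le
  pb hp := h'.pb (h.pb hp)
  div := by
    intro x y hx hy hxy hc
    have hy' := h.le.sub hy
    have hx' : x ∈ R'.S := h'.div hx hy' hxy (h.le.sub hc)
    have h1 : R'.tgt x = R'.src y := by rw [← h'.le.tgt hx', ← h'.le.src hy', hxy]
    refine h.div hx' hy h1 ?_
    rw [← h'.le.comp hx' hy' h1]
    exact hc

/-- the stage axioms on codes; `a n`, `k n` are the codes of the objects `a n` and of `ι n` -/
structure RSt (a k : ℕ → U) (R : Raw U) : Prop where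
  cat : IsCat R
  mono : ∀ {x y f}, x ∈ R.S → y ∈ R.S → f ∈ R.S → R.src x = R.src y → R.tgt x = R.src f →
    R.tgt y = R.src f → R.comp x f = R.comp y f → x = y
  pbx : ∀ {f g}, f ∈ R.S → g ∈ R.S → R.tgt f = R.tgt g → ∃ p q, RPB R p q f g
  a_mem : ∀ n, a n ∈ R.S
  a_src : ∀ n, R.src (a n) = a n
  k_mem : ∀ n, k n ∈ R.S
  k_src : ∀ n, R.src (k n) = a n
  k_tgt : ∀ n, R.tgt (k n) = a (n + 1)
  k_not : ∀ n x, x ∈ R.S → R.src x = a (n + 1) → R.tgt x = a n → R.comp x (k n) ≠ a (n + 1)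
  from_a0 : ∀ x, x ∈ R.S → R.src x = x → ∃ f, f ∈ R.S ∧ R.src f = a 0 ∧ R.tgt f = x

/-! ### Unions -/

section Union

variable {J : Type w} (F : J → Raw U)

open Classical in
/-- union of a directed family -/
noncomputable def union : Raw U where
  S := {f | ∃ j, f ∈ (F j).S}
  src f := if h : ∃ j, f ∈ (F j).S then (F h.choose).src f else f
  tgt f := if h : ∃ j, f ∈ (F j).S then (F h.choose).tgt f else f
  comp f g := if h : ∃ j, f ∈ (F j).S ∧ g ∈ (F j).S then (F h.choose).comp f g else f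

variable {F}

theorem union_le (hdir : ∀ j k, ∃ l, RLe (F j) (F l) ∧ RLe (F k) (F l)) (j : J) :
    RLe (F j) (union F) where
  sub hf := ⟨j, hf⟩
  src := by
    intro f hf
    have h : ∃ j, f ∈ (F j).S := ⟨j, hf⟩
    obtain ⟨l, h1, h2⟩ := hdir h.choose j
    have e : (union F).src f = (F h.choose).src f := dif_pos h
    rw [e, ← h1.src h.choose_spec, h2.src hf]
  tgt := by
    intro f hf
    have h : ∃ j, f ∈ (F j).S := ⟨j, hf⟩
    obtain ⟨l, h1, h2⟩ := hdir h.choose j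
    have e : (union F).tgt f = (F h.choose).tgt f := dif_pos h
    rw [e, ← h1.tgt h.choose_spec, h2.tgt hf]
  comp := by
    intro f g hf hg hfg
    have h : ∃ j, f ∈ (F j).S ∧ g ∈ (F j).S := ⟨j, hf, hg⟩
    obtain ⟨l, h1, h2⟩ := hdir h.choose j
    have e : (union F).comp f g = (F h.choose).comp f g := dif_pos h
    have c : (F h.choose).tgt f = (F h.choose).src g := by
      rw [← h1.tgt h.choose_spec.1, ← h1.src h.choose_spec.2, h2.tgt hf, h2.src hg, hfg]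
    rw [e, ← h1.comp h.choose_spec.1 h.choose_spec.2 c, h2.comp hf hg hfg]

theorem mem_union {f : U} : f ∈ (union F).S ↔ ∃ j, f ∈ (F j).S := Iff.rfl

theorem union2 (hdir : ∀ j k, ∃ l, RLe (F j) (F l) ∧ RLe (F k) (F l)) {f g : U}
    (hf : f ∈ (union F).S) (hg : g ∈ (union F).S) : ∃ j, f ∈ (F j).S ∧ g ∈ (F j).S := by
  obtain ⟨j, hj⟩ := hf
  obtain ⟨k, hk⟩ := hg
  obtain ⟨l, h1, h2⟩ := hdir j k
  exact ⟨l, h1.sub hj, h2.sub hk⟩

theorem union3 (hdir : ∀ j k, ∃ l, RLe (F j) (F l) ∧ RLe (F k) (F l)) {f g h : U}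
    (hf : f ∈ (union F).S) (hg : g ∈ (union F).S) (hh : h ∈ (union F).S) :
    ∃ j, f ∈ (F j).S ∧ g ∈ (F j).S ∧ h ∈ (F j).S := by
  obtain ⟨j, hj, hj'⟩ := union2 hdir hf hg
  obtain ⟨k, hk⟩ := hh
  obtain ⟨l, h1, h2⟩ := hdir j k
  exact ⟨l, h1.sub hj, h1.sub hj', h2.sub hk⟩

theorem union_cat (hdir : ∀ j k, ∃ l, RLe (F j) (F l) ∧ RLe (F k) (F l))
    (hcat : ∀ j, IsCat (F j)) : IsCat (union F) := by
  have L := union_le hdir
  refine ⟨?_, ?_, ?_, ?_, ?_, ?_, ?_, ?_, ?_, ?_, ?_, ?_⟩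
  · rintro f ⟨j, hj⟩
    exact ⟨j, by rw [(L j).src hj]; exact (hcat j).src_mem hj⟩
  · rintro f ⟨j, hj⟩
    exact ⟨j, by rw [(L j).tgt hj]; exact (hcat j).tgt_mem hj⟩
  · rintro f ⟨j, hj⟩
    rw [(L j).src hj, (L j).src ((hcat j).src_mem hj), (hcat j).src_src hj]
  · rintro f ⟨j, hj⟩
    rw [(L j).src hj, (L j).tgt ((hcat j).src_mem hj), (hcat j).tgt_src hj]
  · rintro f ⟨j, hj⟩
    rw [(L j).tgt hj, (L j).src ((hcat j).tgt_mem hj), (hcat j).src_tgt hj]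
  · rintro f ⟨j, hj⟩
    rw [(L j).tgt hj, (L j).tgt ((hcat j).tgt_mem hj), (hcat j).tgt_tgt hj]
  · intro f g hf hg h
    obtain ⟨j, h1, h2⟩ := union2 hdir hf hg
    rw [(L j).tgt h1, (L j).src h2] at h
    exact ⟨j, by rw [(L j).comp h1 h2 h]; exact (hcat j).comp_mem h1 h2 h⟩
  · intro f g hf hg h
    obtain ⟨j, h1, h2⟩ := union2 hdir hf hg
    rw [(L j).tgt h1, (L j).src h2] at h
    rw [(L j).comp h1 h2 h, (L j).src ((hcat j).comp_mem h1 h2 h), (L j).src h1,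
      (hcat j).src_comp h1 h2 h]
  · intro f g hf hg h
    obtain ⟨j, h1, h2⟩ := union2 hdir hf hg
    rw [(L j).tgt h1, (L j).src h2] at h
    rw [(L j).comp h1 h2 h, (L j).tgt ((hcat j).comp_mem h1 h2 h), (L j).tgt h2,
      (hcat j).tgt_comp h1 h2 h]
  · rintro f ⟨j, hj⟩
    rw [(L j).src hj, (L j).comp ((hcat j).src_mem hj) hj ((hcat j).tgt_src hj),
      (hcat j).id_comp hj]
  · rintro f ⟨j, hj⟩
    rw [(L j).tgt hj, (L j).comp hj ((hcat j).tgt_mem hj) ((hcat j).src_tgt hj).symm,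
      (hcat j).comp_id hj]
  · intro f g h hf hg hh e1 e2
    obtain ⟨j, h1, h2, h3⟩ := union3 hdir hf hg hh
    rw [(L j).tgt h1, (L j).src h2] at e1
    rw [(L j).tgt h2, (L j).src h3] at e2
    have e3 : (F j).tgt ((F j).comp f g) = (F j).src h := by
      rw [(hcat j).tgt_comp h1 h2 e1, e2]
    have e4 : (F j).tgt f = (F j).src ((F j).comp g h) := by
      rw [(hcat j).src_comp h2 h3 e2, e1]
    rw [(L j).comp h1 h2 e1, (L j).comp ((hcat j).comp_mem h1 h2 e1) h3 e3, (L j).comp h2 h3 e2,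
      (L j).comp h1 ((hcat j).comp_mem h2 h3 e2) e4, (hcat j).assoc h1 h2 h3 e1 e2]

theorem union_good (hdir : ∀ j k, ∃ l, Good (F j) (F l) ∧ Good (F k) (F l)) (j : J) :
    Good (F j) (union F) := by
  have hd : ∀ j k, ∃ l, RLe (F j) (F l) ∧ RLe (F k) (F l) := fun j k => by
    obtain ⟨l, h1, h2⟩ := hdir j k
    exact ⟨l, h1.le, h2.le⟩
  have L := union_le hd
  refine ⟨L j, ?_, ?_⟩
  · intro p q f g h
    refine ⟨⟨j, h.hp⟩, ⟨j, h.hq⟩, ⟨j, h.hf⟩, ⟨j, h.hg⟩, ?_, ?_, ?_, ?_, ?_, ?_⟩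
    · rw [(L j).src h.hp, (L j).src h.hq, h.pq]
    · rw [(L j).tgt h.hp, (L j).src h.hf, h.pf]
    · rw [(L j).tgt h.hq, (L j).src h.hg, h.qg]
    · rw [(L j).tgt h.hf, (L j).tgt h.hg, h.fg]
    · rw [(L j).comp h.hp h.hf h.pf, (L j).comp h.hq h.hg h.qg, h.sq]
    · intro s t hs ht e1 e2 e3 e4
      obtain ⟨k, hs, ht⟩ := union2 hd hs ht
      obtain ⟨l, hjl, hkl⟩ := hdir j k
      have hl := hjl.pb h
      have hs := hkl.le.sub hs
      have ht := hkl.le.sub ht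
      rw [(L l).src hs, (L l).src ht] at e1
      rw [(L l).tgt hs, (L l).src hl.hf] at e2
      rw [(L l).tgt ht, (L l).src hl.hg] at e3
      rw [(L l).comp hs hl.hf e2, (L l).comp ht hl.hg e3] at e4
      obtain ⟨x, hx, x1, x2, x3, x4⟩ := hl.lift hs ht e1 e2 e3 e4
      refine ⟨x, ⟨l, hx⟩, ?_, ?_, ?_, ?_⟩
      · rw [(L l).src hx, (L l).src hs, x1]
      · rw [(L l).tgt hx, (L l).src hl.hp, x2]
      · rw [(L l).comp hx hl.hp x2, x3]
      · rw [(L l).comp hx hl.hq (x2.trans hl.pq), x4]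
  · intro x y hx hy hxy hc
    obtain ⟨k, hx⟩ := hx
    obtain ⟨l, hjl, hkl⟩ := hdir j k
    have hx := hkl.le.sub hx
    have hy' := hjl.le.sub hy
    rw [(L l).tgt hx, (L l).src hy'] at hxy
    rw [(L l).comp hx hy' hxy] at hc
    exact hjl.div hx hy hxy hc

theorem union_st [Nonempty J] (hdir : ∀ j k, ∃ l, Good (F j) (F l) ∧ Good (F k) (F l))
    {a k : ℕ → U} (hst : ∀ j, RSt a k (F j)) : RSt a k (union F) := by
  have hd : ∀ j k, ∃ l, RLe (F j) (F l) ∧ RLe (F k) (F l) := fun j k => by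
    obtain ⟨l, h1, h2⟩ := hdir j k
    exact ⟨l, h1.le, h2.le⟩
  have L := union_le hd
  obtain ⟨j0⟩ := ‹Nonempty J›
  refine ⟨union_cat hd (fun j => (hst j).cat), ?_, ?_, ?_, ?_, ?_, ?_, ?_, ?_, ?_⟩
  · intro x y f hx hy hf e1 e2 e3 e4
    obtain ⟨j, hx, hy, hf⟩ := union3 hd hx hy hf
    rw [(L j).src hx, (L j).src hy] at e1
    rw [(L j).tgt hx, (L j).src hf] at e2
    rw [(L j).tgt hy, (L j).src hf] at e3
    rw [(L j).comp hx hf e2, (L j).comp hy hf e3] at e4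
    exact (hst j).mono hx hy hf e1 e2 e3 e4
  · intro f g hf hg h
    obtain ⟨j, hf, hg⟩ := union2 hd hf hg
    rw [(L j).tgt hf, (L j).tgt hg] at h
    obtain ⟨p, q, hpq⟩ := (hst j).pbx hf hg h
    exact ⟨p, q, (union_good hdir j).pb hpq⟩
  · exact fun n => ⟨j0, (hst j0).a_mem n⟩
  · intro n
    rw [(L j0).src ((hst j0).a_mem n), (hst j0).a_src n]
  · exact fun n => ⟨j0, (hst j0).k_mem n⟩
  · intro n
    rw [(L j0).src ((hst j0).k_mem n), (hst j0).k_src n]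
  · intro n
    rw [(L j0).tgt ((hst j0).k_mem n), (hst j0).k_tgt n]
  · rintro n x ⟨j, hx⟩ h1 h2 h3
    rw [(L j).src hx] at h1
    rw [(L j).tgt hx] at h2
    rw [(L j).comp hx ((hst j).k_mem n) (by rw [h2, (hst j).k_src n])] at h3
    exact (hst j).k_not n x hx h1 h2 h3
  · rintro x ⟨j, hx⟩ h1
    rw [(L j).src hx] at h1
    obtain ⟨f, hf, h2, h3⟩ := (hst j).from_a0 x hx h1
    exact ⟨f, ⟨j, hf⟩, by rw [(L j).src hf, h2], by rw [(L j).tgt hf, h3]⟩

end Union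

end Vale.Agent.P323.H709
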